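import Vale.Agent.P243.Cover

namespace Vale.Agent.Results.P243.Tetra

open MeasureTheory Set
open scoped ENNReal

/-- Euclidean three-space. -/
abbrev R3 : Type := EuclideanSpace ℝ (Fin 3)

/-- Planar area: two-dimensional Hausdorff measure normalised to agree with Lebesgue measure on
planes. -/
noncomputable def area (B : Set R3) : ℝ≥0∞ := Measure.euclideanHausdorffMeasure 2 B

/-- The plane `u^⊥`. -/
def perp (u : R3) : Set R3 := {x | inner ℝ u x = 0}

/-- The orthogonal projection onto `u^⊥`, for a unit vector `u`. -/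
noncomputable def proj (u x : R3) : R3 := x - inner ℝ u x • u

/-- The area of the orthogonal projection of `K` onto the plane `u^⊥`. -/
noncomputable def projArea (K : Set R3) (u : R3) : ℝ≥0∞ := area (proj u '' K)

/-- The smallest area of an orthogonal projection of `K` onto a plane. -/
noncomputable def minArea (K : Set R3) : ℝ≥0∞ := ⨅ (u : R3) (_ : ‖u‖ = 1), projArea K u

/-- The cylinder `B + ℝ u`. -/
def cylinder (u : R3) (B : Set R3) : Set R3 := {x | ∃ b ∈ B, ∃ t : ℝ, x = b + t • u}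

/-- The point with coordinates `x, y, z`. -/
def pnt (x y z : ℝ) : R3 := !₂[x, y, z]

/-- A regular tetrahedron. -/
def tetra : Set R3 := convexHull ℝ {pnt 1 1 1, pnt (-1) (-1) 1, pnt 1 (-1) (-1), pnt (-1) 1 (-1)}

theorem area_coe {u : R3} (hu : ‖u‖ = 1) (S : Set (ℝ ∙ u)ᗮ) :
    area (Subtype.val '' S) = volume S := by
  have hu0 : u ≠ 0 := by rintro rfl; simp at hu
  have : Fact (Module.finrank ℝ R3 = 2 + 1) := ⟨by simp⟩
  rw [area, Isometry.euclideanHausdorffMeasure_image isometry_subtype_coe,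
    ← InnerProductSpace.euclideanHausdorffMeasure_eq_volume,
    Submodule.finrank_orthogonal_span_singleton (n := 2) hu0]

open Vale.Agent.P243 in
theorem result :
    IsCompact tetra ∧ Convex ℝ tetra ∧ (interior tetra).Nonempty ∧
    ∃ (m : ℕ) (u : Fin m → R3) (B : Fin m → Set R3),
      (∀ i, ‖u i‖ = 1) ∧ (∀ i, B i ⊆ perp (u i)) ∧ (∀ i, IsCompact (B i)) ∧
      tetra ⊆ ⋃ i, cylinder (u i) (B i) ∧
      ∑ i, area (B i) < minArea tetra / 2 ∧
      ∑ i, area (B i) / projArea tetra (u i) < 1 / 2 := by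
  have ht : tetra = tetI := hull_eq
  have hc : Convex ℝ tetra := convex_convexHull ℝ _
  refine ⟨(Set.toFinite _).isCompact_convexHull ℝ, hc, ?_, ?_⟩
  · rw [ht]; exact interior_tetI
  obtain ⟨ε, hε⟩ : ∃ ε : ℝ, ε = 1 / 10000 := ⟨_, rfl⟩
  obtain ⟨n, hn⟩ : ∃ n : ℕ, ((n + 1 : ℕ) : ℝ) * ε ^ 2 = 2 := ⟨199999999, by rw [hε]; norm_num⟩
  let e := (Fintype.equivFin (Bool × Fin (n + 1))).symm
  have hsum : ∑ i, volume (base ε (e i).1 (eta ε (e i).2)) < ENNReal.ofReal √2 := by
    rw [Equiv.sum_comp e (fun p => volume (base ε p.1 (eta ε p.2)))]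
    exact total_lt hε hn
  have hp : ∀ u, ‖u‖ = 1 → ENNReal.ofReal (2 * √2) ≤ projArea tetra u := fun u hu => by
    have : proj u '' tetra = Subtype.val '' ((ℝ ∙ u)ᗮ.orthogonalProjectionOnto '' tetra) := by
      rw [image_image]
      exact image_congr fun x _ => (proj_val hu x).symm
    rw [projArea, this, area_coe hu]
    exact proj_ge hc (subset_convexHull ℝ _ (by simp [pnt])) (subset_convexHull ℝ _ (by simp [pnt]))
      (subset_convexHull ℝ _ (by simp [pnt])) (subset_convexHull ℝ _ (by simp [pnt])) hu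
  have h2 : ENNReal.ofReal (2 * √2) = ENNReal.ofReal √2 * 2 := by
    rw [mul_comm, ENNReal.ofReal_mul (by positivity)]; simp
  have h0 : ENNReal.ofReal √2 ≠ 0 := by simp
  refine ⟨_, fun i => udir ε (e i).1 (eta ε (e i).2),
    fun i => Subtype.val '' base ε (e i).1 (eta ε (e i).2),
    fun i => norm_udir _ _ _, ?_, fun i => (isCompact_base _ _ _).image continuous_subtype_val,
    ?_, ?_, ?_⟩
  · rintro i _ ⟨x, -, rfl⟩
    exact Submodule.mem_orthogonal_singleton_iff_inner_right.1 x.2
  · intro q hq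
    rw [ht] at hq
    obtain ⟨σ, i, hi, x, hx, h⟩ := cover hε hn hq
    refine mem_iUnion.2 ⟨e.symm (σ, ⟨i, by omega⟩), ?_⟩
    beta_reduce
    rw [Equiv.apply_symm_apply]
    exact ⟨x, ⟨x, hx, rfl⟩, h⟩
  · simp only [area_coe (norm_udir _ _ _)]
    refine hsum.trans_le ?_
    rw [ENNReal.le_div_iff_mul_le (by simp) (by simp), ← h2]
    exact le_iInf fun u => le_iInf fun hu => hp u hu
  · simp only [area_coe (norm_udir _ _ _)]
    calc _ ≤ ∑ i, volume (base ε (e i).1 (eta ε (e i).2)) / ENNReal.ofReal (2 * √2) :=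
          Finset.sum_le_sum fun i _ => ENNReal.div_le_div_left (hp _ (norm_udir _ _ _)) _
      _ = (∑ i, volume (base ε (e i).1 (eta ε (e i).2))) / ENNReal.ofReal (2 * √2) := by
          simp only [div_eq_mul_inv, Finset.sum_mul]
      _ < ENNReal.ofReal √2 / ENNReal.ofReal (2 * √2) :=
          ENNReal.div_lt_div_right (by simp) ENNReal.ofReal_ne_top hsum
      _ = 1 / 2 := by
          rw [h2]
          have := ENNReal.mul_div_mul_left 1 2 h0 ENNReal.ofReal_ne_top
          rwa [mul_one] at this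

end Vale.Agent.Results.P243.Tetra
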